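import Vale.Agent.Lib.P243.Defs

open MeasureTheory
open scoped ENNReal
open Vale.Agent.Lib.P243

/-- Every finite cylinder covering of an origin-symmetric convex body in three-space has
directionwise relative area at least `5/12`, hence total base area at least `5/12` of the
minimal shadow area. -/
theorem Vale.Agent.Results.P243.SymmetricFiveTwelfths.result
    {ι : Type} [Fintype ι] {K : Set E3} (hK : IsBody K) (hs : ∀ x ∈ K, -x ∈ K)
    {u : ι → E3} {B : ι → Set E3} (h : Covers K u B) :
    (5 / 12 : ℝ≥0∞) ≤ relArea K u B ∧ (5 / 12 : ℝ≥0∞) * minShadow K ≤ totalArea u B :=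
  ⟨symm_rel hK hs h, total_of_rel h.1 (symm_rel hK hs h)⟩
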