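import Vale.Agent.Lib.P243.Universal

open MeasureTheory
open scoped ENNReal
open Vale.Agent.Lib.P243

/-- Every finite cylinder covering of every convex body in three-space has directionwise relative
area at least `1/3 + 10^(-134)`, hence total base area at least `1/3 + 10^(-134)` times the minimal
shadow area. In particular the Bezdek-Litvak bound `1/3` is not sharp: `r₃ > 1/3` and `c₃ > 1/3`. -/
theorem Vale.Agent.Results.P243.UniversalGap.result
    {ι : Type} [Fintype ι] {K : Set E3} (hK : IsBody K)
    {u : ι → E3} {B : ι → Set E3} (h : Covers K u B) :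
    ENNReal.ofReal (1 / 3 + 1 / 10 ^ 134) ≤ relArea K u B ∧
      ENNReal.ofReal (1 / 3 + 1 / 10 ^ 134) * minShadow K ≤ totalArea u B :=
  ⟨universal_rel hK h, total_of_rel h.1 (universal_rel hK h)⟩
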